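import Mathlib.Analysis.Calculus.DifferentialForm.Basic
import Mathlib.Geometry.Manifold.MFDeriv.Basic
import Mathlib.MeasureTheory.Integral.Bochner.Set
import Mathlib.MeasureTheory.Measure.Lebesgue.Complex
import Mathlib.Analysis.SpecialFunctions.Log.Basic

/-!
# P267: the global spherical shell conjecture, final statement

A compact complex surface is a compact connected Hausdorff space `X` with an atlas of charts in
`ℂ² = ℂ × ℂ` with holomorphic changes of charts (`IsManifold 𝓘(ℂ, ℂ × ℂ) ω X`).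
-/

open scoped Manifold ContDiff Topology
open MeasureTheory

noncomputable section

namespace Vale.Agent.P267.Final

/-! ### real differential forms and Betti numbers -/

section Forms

variable {X : Type*} [TopologicalSpace X] [ChartedSpace (ℂ × ℂ) X]

/-- A (not necessarily smooth) real `k`-form on `X`: an alternating `ℝ`-multilinear form on every
tangent space. -/
abbrev RForm (k : ℕ) (X : Type*) [TopologicalSpace X] [ChartedSpace (ℂ × ℂ) X] :=
  ∀ x : X, TangentSpace 𝓘(ℝ, ℂ × ℂ) x [⋀^Fin k]→L[ℝ] ℝ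

/-- The pullback of the form `a` by a map `f : ℂ² → X`. For `f = e.symm`, the inverse of a chart `e`,
it is the coordinate expression of `a` in the chart `e`. -/
def pullForm {k : ℕ} (f : ℂ × ℂ → X) (a : RForm k X) : ℂ × ℂ → (ℂ × ℂ) [⋀^Fin k]→L[ℝ] ℝ :=
  fun z => (a (f z)).compContinuousLinearMap (mfderiv 𝓘(ℝ, ℂ × ℂ) 𝓘(ℝ, ℂ × ℂ) f z)

/-- A form is smooth if its expression in every chart of the atlas is smooth. -/
def IsSmooth {k : ℕ} (a : RForm k X) : Prop :=
  ∀ e ∈ atlas (ℂ × ℂ) X, ContDiffOn ℝ ∞ (pullForm e.symm a) e.target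

/-- A form is closed if its exterior derivative vanishes in every chart of the atlas. -/
def IsClosed {k : ℕ} (a : RForm k X) : Prop :=
  ∀ e ∈ atlas (ℂ × ℂ) X, ∀ z ∈ e.target, extDeriv (pullForm e.symm a) z = 0

/-- `c = d b + t₁ a₁ + … + tₙ aₙ` in every chart of the atlas. -/
def IsComb {k n : ℕ} (c : RForm (k + 1) X) (b : RForm k X) (t : Fin n → ℝ)
    (a : Fin n → RForm (k + 1) X) : Prop :=
  ∀ e ∈ atlas (ℂ × ℂ) X, ∀ z ∈ e.target, ∀ v, pullForm e.symm c z v =
    extDeriv (pullForm e.symm b) z v + ∑ i, t i * pullForm e.symm (a i) z v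

end Forms

/-- The Betti number `b_{k+1}(X)` is `n`: there are `n` closed smooth `(k+1)`-forms such that every
closed smooth `(k+1)`-form is, with unique coefficients, a real linear combination of them up to an
exact form (so the de Rham cohomology group of degree `k + 1` has dimension `n`). -/
def BettiSucc (X : Type*) [TopologicalSpace X] [ChartedSpace (ℂ × ℂ) X] (k n : ℕ) : Prop :=
  ∃ a : Fin n → RForm (k + 1) X, (∀ i, IsSmooth (a i) ∧ IsClosed (a i)) ∧
    ∀ c : RForm (k + 1) X, IsSmooth c → IsClosed c →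
      ∃! t : Fin n → ℝ, ∃ b : RForm k X, IsSmooth b ∧ IsComb c b t a

/-! ### pluricanonical sections -/

/-- A holomorphic section of the `m`-th power of the canonical bundle of `X`, given by its
coefficients in the charts: in the chart `e` it is `coeff e (z) (dz₁ ∧ dz₂)^m`. -/
structure PluriForm (m : ℕ) (X : Type*) [TopologicalSpace X] [ChartedSpace (ℂ × ℂ) X] where
  coeff : OpenPartialHomeomorph X (ℂ × ℂ) → ℂ × ℂ → ℂ
  holo : ∀ e ∈ atlas (ℂ × ℂ) X, DifferentiableOn ℂ (coeff e) e.target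
  change : ∀ e ∈ atlas (ℂ × ℂ) X, ∀ e' ∈ atlas (ℂ × ℂ) X, ∀ z ∈ (e.symm.trans e').source,
    coeff e z = coeff e' (e' (e.symm z)) * (fderiv ℂ (fun w => e' (e.symm w)) z).det ^ m

/-- The Kodaira dimension of `X` is `-∞`: all plurigenera vanish. -/
def KodairaNegInf (X : Type*) [TopologicalSpace X] [ChartedSpace (ℂ × ℂ) X] : Prop :=
  ∀ m : ℕ, 1 ≤ m → ∀ s : PluriForm m X, ∀ e ∈ atlas (ℂ × ℂ) X, ∀ z ∈ e.target, s.coeff e z = 0

/-! ### rational curves -/

/-- A holomorphic map from the projective line `ℙ¹ = ℂ ∪ {∞}` to `X`: `f₀` is its restriction to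
`ℂ`, `f₁` its restriction to the coordinate plane `w = 1/z` at infinity. -/
structure P1Map (X : Type*) [TopologicalSpace X] [ChartedSpace (ℂ × ℂ) X] where
  f₀ : ℂ → X
  f₁ : ℂ → X
  holo₀ : MDifferentiable 𝓘(ℂ) 𝓘(ℂ, ℂ × ℂ) f₀
  holo₁ : MDifferentiable 𝓘(ℂ) 𝓘(ℂ, ℂ × ℂ) f₁
  glue : ∀ z : ℂ, z ≠ 0 → f₀ z = f₁ z⁻¹

section Curves

variable {X : Type*} [TopologicalSpace X] [ChartedSpace (ℂ × ℂ) X]

/-- The image of `ℙ¹`. -/
def P1Map.image (φ : P1Map X) : Set X := Set.range φ.f₀ ∪ {φ.f₁ 0}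

/-- A rational curve in `X`: the image of a nonconstant holomorphic map `ℙ¹ → X` (equivalently, an
irreducible compact curve whose normalisation is `ℙ¹`). -/
def IsRationalCurve (C : Set X) : Prop :=
  ∃ φ : P1Map X, (∃ z w, φ.f₀ z ≠ φ.f₀ w) ∧ C = φ.image

end Curves

/-! ### effective divisors -/

/-- An effective divisor on `X`, given by local equations: near each point `x` (on the open set
`U x ∋ x`) it is the divisor of the holomorphic function `f x`, which does not vanish identically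
near any point, and two of these functions differ by a holomorphic factor without zeros. -/
structure EffDiv (X : Type*) [TopologicalSpace X] [ChartedSpace (ℂ × ℂ) X] where
  U : X → Set X
  f : X → X → ℂ
  isOpen : ∀ x, IsOpen (U x)
  mem : ∀ x, x ∈ U x
  holo : ∀ x, MDifferentiableOn 𝓘(ℂ, ℂ × ℂ) 𝓘(ℂ) (f x) (U x)
  ne : ∀ x, ∀ y ∈ U x, ∃ᶠ z in 𝓝 y, f x z ≠ 0
  change : ∀ x x', ∃ g : X → ℂ, MDifferentiableOn 𝓘(ℂ, ℂ × ℂ) 𝓘(ℂ) g (U x ∩ U x') ∧
    ∀ y ∈ U x ∩ U x', g y ≠ 0 ∧ f x y = g y * f x' y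

/-- `∂f/∂z_v = (df(v) - i df(iv))/2` at `z`; for `v = (1, 0)` and `v = (0, 1)` these are the
derivatives `∂f/∂z₁` and `∂f/∂z₂`. -/
def dz (v : ℂ × ℂ) (f : ℂ × ℂ → ℂ) (z : ℂ × ℂ) : ℂ :=
  (fderiv ℝ f z v - Complex.I * fderiv ℝ f z (Complex.I • v)) / 2

/-- `∂f/∂z̄_v = (df(v) + i df(iv))/2` at `z`. -/
def dzb (v : ℂ × ℂ) (f : ℂ × ℂ → ℂ) (z : ℂ × ℂ) : ℂ :=
  (fderiv ℝ f z v + Complex.I * fderiv ℝ f z (Complex.I • v)) / 2

/-- The determinant of the complex Hessian matrix `(∂²u/∂z_j∂z̄_k)` of a real function `u` of two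
complex variables. -/
def hessDet (u : ℂ × ℂ → ℝ) (z : ℂ × ℂ) : ℂ :=
  dz (1, 0) (dzb (1, 0) fun y => (u y : ℂ)) z * dz (0, 1) (dzb (0, 1) fun y => (u y : ℂ)) z -
    dz (1, 0) (dzb (0, 1) fun y => (u y : ℂ)) z * dz (0, 1) (dzb (1, 0) fun y => (u y : ℂ)) z

section Divisors

variable {X : Type*} [TopologicalSpace X] [ChartedSpace (ℂ × ℂ) X]

/-- `I` is the integral over `X` of the form of degree `4` which in the chart `e` is the function
`D e` times Lebesgue measure: the integral computed with any finite partition of unity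
subordinate to charts. -/
def IsIntegral (D : OpenPartialHomeomorph X (ℂ × ℂ) → ℂ × ℂ → ℝ) (I : ℝ) : Prop :=
  ∀ (N : ℕ) (e : Fin N → OpenPartialHomeomorph X (ℂ × ℂ)) (ρ : Fin N → X → ℝ),
    (∀ i, e i ∈ atlas (ℂ × ℂ) X) → (∀ i, Continuous (ρ i)) →
    (∀ i, tsupport (ρ i) ⊆ (e i).source) → (∀ x, ∑ i, ρ i x = 1) →
    ∑ i, ∫ z in (e i).target, ρ i ((e i).symm z) * D (e i) z = I

/-- The support of an effective divisor. The divisor is nonzero iff its support is not empty. -/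
def EffDiv.supp (D : EffDiv X) : Set X := {x | D.f x x = 0}

/-- A smooth Hermitian metric on the line bundle `𝒪(D)`: positive weights `h x` on `U x` such that
the functions `|f x|² h x` (the squared norm of the canonical section) agree on the overlaps. -/
structure EffDiv.IsMetric (D : EffDiv X) (h : X → X → ℝ) : Prop where
  smooth : ∀ x, ∀ y ∈ D.U x, ∀ e ∈ atlas (ℂ × ℂ) X, y ∈ e.source →
    ContDiffAt ℝ ∞ (fun z => h x (e.symm z)) (e y)
  pos : ∀ x, ∀ y ∈ D.U x, 0 < h x y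
  change : ∀ x x', ∀ y ∈ D.U x ∩ D.U x', ‖D.f x y‖ ^ 2 * h x y = ‖D.f x' y‖ ^ 2 * h x' y

/-- The self-intersection number `D²` is `d`: it is the integral over `X` of `c₁ ∧ c₁` for the first
Chern form `c₁ = -(i/2π) ∂∂̄ log h` of a smooth Hermitian metric `h` of `𝒪(D)`; in a chart
`c₁ ∧ c₁` is `(2/π²) det(∂² log h/∂z_j∂z̄_k)` times Lebesgue measure. -/
def EffDiv.SelfInt (D : EffDiv X) (d : ℝ) : Prop :=
  ∃ h : X → X → ℝ, D.IsMetric h ∧ IsIntegral (X := X) (fun e z =>
    2 / Real.pi ^ 2 * (hessDet (fun w => Real.log (h (e.symm z) (e.symm w))) z).re) d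

/-- `D` is a smooth rational curve: its local equations have nonzero differential at their zeros,
and its support is the image of an injective holomorphic map `ℙ¹ → X`. -/
def EffDiv.IsSmoothRational (D : EffDiv X) : Prop :=
  (∀ x, ∀ y ∈ D.U x, D.f x y = 0 → ∀ e ∈ atlas (ℂ × ℂ) X, y ∈ e.source →
    ∃ v, fderiv ℂ (fun z => D.f x (e.symm z)) (e y) v ≠ 0) ∧
    ∃ φ : P1Map X, Function.Injective φ.f₀ ∧ φ.f₁ 0 ∉ Set.range φ.f₀ ∧ D.supp = φ.image

end Divisors

/-- `X` is minimal: it contains no smooth rational curve of self-intersection number `-1`. -/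
def Minimal (X : Type*) [TopologicalSpace X] [ChartedSpace (ℂ × ℂ) X] : Prop :=
  ¬ ∃ D : EffDiv X, D.IsSmoothRational ∧ D.SelfInt (-1)

/-! ### global spherical shells -/

/-- `X` contains a global spherical shell: an open subset which is biholomorphic (by `F`, with
inverse `G`) to an open neighbourhood `U` of the unit sphere `S³` in `ℂ² \ {0}` and whose complement
in `X` is connected. -/
def HasGSS (X : Type*) [TopologicalSpace X] [ChartedSpace (ℂ × ℂ) X] : Prop :=
  ∃ (U : Set (ℂ × ℂ)) (F : ℂ × ℂ → X) (G : X → ℂ × ℂ), IsOpen U ∧ (0, 0) ∉ U ∧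
    {z : ℂ × ℂ | ‖z.1‖ ^ 2 + ‖z.2‖ ^ 2 = 1} ⊆ U ∧ IsOpen (F '' U) ∧
    MDifferentiableOn 𝓘(ℂ, ℂ × ℂ) 𝓘(ℂ, ℂ × ℂ) F U ∧
    MDifferentiableOn 𝓘(ℂ, ℂ × ℂ) 𝓘(ℂ, ℂ × ℂ) G (F '' U) ∧ (∀ z ∈ U, G (F z) = z) ∧
    IsConnected (F '' U)ᶜ

/-- The hypotheses: `X` is a minimal compact connected complex surface of class VII (i.e.
`b₁(X) = 1` and `κ(X) = -∞`) with `b₂(X) = n > 0`. -/
structure IsMinimalVII (X : Type*) [TopologicalSpace X] [ChartedSpace (ℂ × ℂ) X] (n : ℕ) :
    Prop where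
  b1 : BettiSucc X 0 1
  b2 : BettiSucc X 1 n
  pos : 0 < n
  kod : KodairaNegInf X
  min : Minimal X

/-- A minimal surface `X` of class VII with `b₂(X) = n > 0` contains `n` distinct rational
curves. -/
def CurvesStatement : Prop :=
  ∀ (X : Type) [TopologicalSpace X] [T2Space X] [CompactSpace X] [ConnectedSpace X]
    [ChartedSpace (ℂ × ℂ) X] [IsManifold 𝓘(ℂ, ℂ × ℂ) ω X] (n : ℕ), IsMinimalVII X n →
      ∃ C : Fin n → Set X, Function.Injective C ∧ ∀ i, IsRationalCurve (C i)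

/-- **The global spherical shell conjecture.** -/
def GSSConjecture : Prop :=
  ∀ (X : Type) [TopologicalSpace X] [T2Space X] [CompactSpace X] [ConnectedSpace X]
    [ChartedSpace (ℂ × ℂ) X] [IsManifold 𝓘(ℂ, ℂ × ℂ) ω X] (n : ℕ), IsMinimalVII X n → HasGSS X

end Vale.Agent.P267.Final
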